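import Mathlib
import Vale.Agent.P192.CarvDef
import Vale.Agent.P196c.ConnDef
import Vale.Agent.P196c.BType
import Vale.Agent.P196c.CarvSimple

namespace Vale.Agent.Results.P196.BoundedType

open Vale.Agent.P192 Vale.Agent.P196c

universe u v

/-- Restrictions on the actions of infinite finitely presented simple groups. -/
theorem result (G : Type u) [Group G] [Group.IsFinitelyPresented G] [IsSimpleGroup G]
    [Infinite G] :
    -- (1) actions of bounded type are trivial
    (∀ (X : Type v) [MulAction G X] (E : ℕ → X → X → Prop),
      -- an increasing sequence of equivalence relations with finite classes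
      (∀ n, Equivalence (E n)) → (∀ n x y, E n x y → E (n + 1) x y) →
      (∀ n x, {y | E n x y}.Finite) →
      -- every element moves a bounded number of points of each class of `E n` out of the class
      (∀ g : G, ∃ C : ℕ, ∀ n x, {y | E n x y ∧ ¬ E n y (g • y)}.ncard ≤ C) →
      -- every element has finitely many singular points
      (∀ g : G, {x : X | ∀ n, ¬ E n x (g • x)}.Finite) →
        ∀ (g : G) (x : X), g • x = x) ∧
    -- (2) connected subsets of sets with carvings of width `C` have bounded size, uniformly
    (∀ S : Set G, S.Finite → Subgroup.closure S = ⊤ → ∀ C : ℕ, ∃ B : ℕ,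
      ∀ (X : Type v) [MulAction G X] (F : Set X), Carv S C F → ∀ A ⊆ F, Conn S A →
        A.ncard ≤ B) :=
  ⟨fun _ _ E hE hmono hfin hbd hsing => bt_trivial E hE hmono hfin hbd hsing,
    fun S hSf hS C => carving_simple S hSf hS C⟩

end Vale.Agent.Results.P196.BoundedType
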