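import Mathlib
import Vale.Agent.P196.Defs
import Vale.Agent.P196.Quant

namespace Vale.Agent.Results.P196.SchreierGap

open Vale.Agent.P196

universe u v w

/-- Restrictions on infinite finitely presented simple groups (amenable or not). -/
theorem result (G : Type u) [Group G] [Group.IsFinitelyPresented G] [IsSimpleGroup G]
    [Infinite G] :
    -- (1) growth of orbits
    (∀ S : Set G, S.Finite → Subgroup.closure S = ⊤ →
      ∃ c : ℝ, 0 < c ∧ ∃ N : ℕ, ∀ (X : Type v) [MulAction G X] (x : X), (∃ g : G, g • x ≠ x) →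
        ∀ n : ℕ, N ≤ n →
          c * n * (Real.log n / Real.log (Real.log n)) ≤ (ball S x n).ncard) ∧
    -- (2) finite exhausting sets have boundaries tending to infinity
    (∀ (X : Type v) [MulAction G X] (S : Set G), Subgroup.closure S = ⊤ →
      ∀ x : X, (∃ g : G, g • x ≠ x) → ∀ C : ℕ,
        ∃ K : Set X, K.Finite ∧ K ⊆ MulAction.orbit G x ∧
          ∀ F : Set X, F.Finite → K ⊆ F → F ⊆ MulAction.orbit G x → C < (bdry S F).ncard) ∧
    -- (3) no isolated thin ends
    (∀ (X : Type v) [MulAction G X] [MulAction.IsPretransitive G X] (S : Set G),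
      Subgroup.closure S = ⊤ → ∀ (C : ℕ) (F : ℕ → Set X), Monotone F → ⋃ n, F n = Set.univ →
        (∀ n, (F (n + 1) \ F n).Finite) →
        (∀ n, (bdry S (F n)).Finite ∧ (bdry S (F n)).ncard ≤ C) → ∃ n, F n = Set.univ) ∧
    -- (4) actions by piecewise `H`-permutations, `H` virtually cyclic, are trivial
    (∀ (X : Type v) (H : Type w) [Group H] (t : H), (Subgroup.zpowers t).FiniteIndex →
      ∀ (ρ : G →* Equiv.Perm X) (σ : H →* Equiv.Perm X),
        (∀ g : G, ∃ K : Set H, K.Finite ∧ ∀ x : X, ∃ h ∈ K, ρ g x = σ h x) → ρ = 1) ∧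
    -- (5) homomorphisms to topological full groups are trivial
    (∀ (X : Type v) [TopologicalSpace X] (φ : X ≃ₜ X) (ρ : G →* (X ≃ₜ X)),
      (∀ g : G, ρ g ∈ topFullGroup φ) → ρ = 1) := by
  refine ⟨?_, ?_, ?_, ?_, ?_⟩
  · intro S hSf hS
    exact growth_gap S hSf hS
  · intro X _ S hS x hx C
    exact exhaust S hS x hx C
  · intro X _ _ S hS C F hmono hU hdiff hb
    exact thin_end S hS C F hmono hU hdiff hb
  · intro X H _ t ht ρ σ hρ
    exact piecewise_trivial ρ σ t ht hρ
  · intro X _ φ ρ hρ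
    exact full_group_trivial φ ρ hρ

end Vale.Agent.Results.P196.SchreierGap
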